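import Mathlib

/-!
P328, fact F11: unit insertion. For tables with nonnegative integer entries and margins `r, c`,
`|Ω(r + e_i, c + e_j)| (r_i + 1)(c_j + 1) ≤ |Ω(r, c)| (r_i + n)(c_j + m)`, its iterate, and the
layer cake bound for product weights that vanish far below zero.
-/

namespace Vale.Agent.P328B

open Finset

variable {R C : Type} [Fintype R] [DecidableEq R] [Fintype C] [DecidableEq C]

/-- Tables with nonnegative entries and margins `r`, `c`. -/
noncomputable def tables (r : R → ℤ) (c : C → ℤ) : Finset (R × C → ℤ) :=
  (Fintype.piFinset fun e : R × C => Finset.Icc 0 (r e.1)).filter fun X =>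
    (∀ i, ∑ j, X (i, j) = r i) ∧ ∀ j, ∑ i, X (i, j) = c j

theorem mem_tables {r : R → ℤ} {c : C → ℤ} {X : R × C → ℤ} :
    X ∈ tables r c ↔ (∀ e, 0 ≤ X e) ∧ (∀ i, ∑ j, X (i, j) = r i) ∧ ∀ j, ∑ i, X (i, j) = c j := by
  unfold tables
  rw [Finset.mem_filter, Fintype.mem_piFinset]
  constructor
  · rintro ⟨h1, h2, h3⟩
    exact ⟨fun e => (Finset.mem_Icc.1 (h1 e)).1, h2, h3⟩
  · rintro ⟨h1, h2, h3⟩
    refine ⟨fun e => Finset.mem_Icc.2 ⟨h1 e, ?_⟩, h2, h3⟩
    rw [← h2 e.1]
    exact Finset.single_le_sum (f := fun j => X (e.1, j)) (fun j _ => h1 _) (Finset.mem_univ e.2)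

/-- Sum comparison along a map which is injective on the support. -/
theorem sum_le_of_inj {α β : Type} [DecidableEq β] {s : Finset α} {t : Finset β} {f : α → ℤ}
    {g : β → ℤ} (φ : α → β) (hg : ∀ y ∈ t, 0 ≤ g y) (hinj : Function.Injective φ)
    (h : ∀ x ∈ s, f x ≠ 0 → φ x ∈ t ∧ f x ≤ g (φ x)) : ∑ x ∈ s, f x ≤ ∑ y ∈ t, g y := by
  classical
  calc ∑ x ∈ s, f x = ∑ x ∈ s.filter (fun x => f x ≠ 0), f x := by
        rw [Finset.sum_filter_ne_zero]
    _ ≤ ∑ x ∈ s.filter (fun x => f x ≠ 0), g (φ x) := by
        refine Finset.sum_le_sum fun x hx => ?_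
        rw [Finset.mem_filter] at hx
        exact (h x hx.1 hx.2).2
    _ = ∑ y ∈ (s.filter (fun x => f x ≠ 0)).image φ, g y := by
        rw [Finset.sum_image fun x _ y _ hxy => hinj hxy]
    _ ≤ ∑ y ∈ t, g y := by
        refine Finset.sum_le_sum_of_subset_of_nonneg ?_ fun y hy _ => hg y hy
        intro y hy
        rw [Finset.mem_image] at hy
        obtain ⟨x, hx, rfl⟩ := hy
        rw [Finset.mem_filter] at hx
        exact (h x hx.1 hx.2).1

/-- The switch used in the double counting. -/
def swi (i i' : R) (j j' : C) (X : R × C → ℤ) : R × C → ℤ := fun e =>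
  X e - (if e = (i, j') then 1 else 0) - (if e = (i', j) then 1 else 0)
    + (if e = (i', j') then 1 else 0)

omit [Fintype R] [Fintype C] in
theorem swi_inj (i i' : R) (j j' : C) : Function.Injective (swi i i' j j') := by
  intro X Y h
  funext e
  have := congrFun h e
  simp only [swi] at this
  linarith

omit [Fintype R] in
theorem sum_row_ite (a i : R) (j' : C) :
    ∑ j : C, (if ((a, j) : R × C) = (i, j') then (1 : ℤ) else 0) = if a = i then 1 else 0 := by
  by_cases h : a = i
  · subst h
    simp
  · have : ∀ j : C, ((a, j) : R × C) ≠ (i, j') := fun j hj => h (Prod.ext_iff.1 hj).1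
    simp [h]

omit [Fintype C] in
theorem sum_col_ite (b j : C) (i' : R) :
    ∑ i : R, (if ((i, b) : R × C) = (i', j) then (1 : ℤ) else 0) = if b = j then 1 else 0 := by
  by_cases h : b = j
  · subst h
    simp
  · simp [h]

/-- **Unit insertion.** -/
theorem insert_one (r : R → ℤ) (c : C → ℤ) (i : R) (j : C) :
    ((tables (fun a => r a + if a = i then 1 else 0) (fun b => c b + if b = j then 1 else 0)).card : ℤ)
        * ((r i + 1) * (c j + 1))
      ≤ ((tables r c).card : ℤ) * ((r i + Fintype.card C) * (c j + Fintype.card R)) := by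
  classical
  set T' := tables (fun a => r a + if a = i then 1 else 0) (fun b => c b + if b = j then 1 else 0)
    with hT'
  set T := tables r c with hT
  have h1 : (T'.card : ℤ) * ((r i + 1) * (c j + 1))
      = ∑ q : R × C, ∑ X ∈ T', X (i, q.2) * X (q.1, j) := by
    rw [Finset.sum_comm]
    have : ∀ X ∈ T', ∑ q : R × C, X (i, q.2) * X (q.1, j) = (r i + 1) * (c j + 1) := by
      intro X hX
      rw [hT', mem_tables] at hX
      rw [Fintype.sum_prod_type]
      have e1 : ∀ x : R, ∑ y : C, X (i, (x, y).2) * X ((x, y).1, j) = (r i + 1) * X (x, j) := by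
        intro x
        simp only
        rw [← Finset.sum_mul, hX.2.1 i, if_pos rfl]
      rw [Finset.sum_congr rfl fun x _ => e1 x, ← Finset.mul_sum, hX.2.2 j, if_pos rfl]
    rw [Finset.sum_congr rfl this, Finset.sum_const, nsmul_eq_mul]
  have h2 : (T.card : ℤ) * ((r i + Fintype.card C) * (c j + Fintype.card R))
      = ∑ q : R × C, ∑ X ∈ T, (X (i, q.2) + 1) * (X (q.1, j) + 1) := by
    rw [Finset.sum_comm]
    have : ∀ X ∈ T, ∑ q : R × C, (X (i, q.2) + 1) * (X (q.1, j) + 1)
        = (r i + Fintype.card C) * (c j + Fintype.card R) := by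
      intro X hX
      rw [hT, mem_tables] at hX
      rw [Fintype.sum_prod_type]
      have e1 : ∀ x : R, ∑ y : C, (X (i, (x, y).2) + 1) * (X ((x, y).1, j) + 1)
          = (r i + Fintype.card C) * (X (x, j) + 1) := by
        intro x
        simp only
        rw [← Finset.sum_mul, Finset.sum_add_distrib, hX.2.1 i]
        simp
      rw [Finset.sum_congr rfl fun x _ => e1 x, ← Finset.mul_sum, Finset.sum_add_distrib,
        hX.2.2 j]
      simp
    rw [Finset.sum_congr rfl this, Finset.sum_const, nsmul_eq_mul]
  rw [h1, h2]
  refine Finset.sum_le_sum fun q _ => ?_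
  obtain ⟨i', j'⟩ := q
  simp only
  refine sum_le_of_inj (swi i i' j j') (fun X hX => ?_) (swi_inj i i' j j') fun X hX hne => ?_
  · rw [hT, mem_tables] at hX
    have := hX.1 (i, j')
    have := hX.1 (i', j)
    positivity
  · rw [hT', mem_tables] at hX
    obtain ⟨hX0, hXr, hXc⟩ := hX
    have ha : 1 ≤ X (i, j') := by
      have h0 := hX0 (i, j')
      rcases h0.lt_or_eq with h | h
      · omega
      · exact absurd (by rw [← h, zero_mul]) hne
    have hb : 1 ≤ X (i', j) := by
      have h0 := hX0 (i', j)
      rcases h0.lt_or_eq with h | h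
      · omega
      · exact absurd (by rw [← h, mul_zero]) hne
    refine ⟨?_, ?_⟩
    · rw [hT, mem_tables]
      refine ⟨fun e => ?_, fun a => ?_, fun b => ?_⟩
      · simp only [swi]
        have h0 := hX0 e
        by_cases h3 : e = (i, j')
        · by_cases h4 : e = (i', j)
          · have h5 : e = (i', j') := by
              rw [h3] at h4 ⊢
              have := (Prod.ext_iff.1 h4).1
              simp only at this
              rw [this]
            rw [if_pos h3, if_pos h4, if_pos h5]
            rw [h3]
            omega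
          · rw [if_pos h3, if_neg h4]
            rw [h3]
            split_ifs <;> omega
        · by_cases h4 : e = (i', j)
          · rw [if_neg h3, if_pos h4, h4]
            split_ifs <;> omega
          · rw [if_neg h3, if_neg h4]
            split_ifs <;> omega
      · have e1 : ∑ y : C, swi i i' j j' X (a, y) = (∑ y : C, X (a, y))
            - (if a = i then 1 else 0) - (if a = i' then 1 else 0) + (if a = i' then 1 else 0) := by
          simp only [swi]
          rw [Finset.sum_add_distrib, Finset.sum_sub_distrib, Finset.sum_sub_distrib,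
            sum_row_ite, sum_row_ite, sum_row_ite]
        rw [e1, hXr a]
        ring
      · have e1 : ∑ x : R, swi i i' j j' X (x, b) = (∑ x : R, X (x, b))
            - (if b = j' then 1 else 0) - (if b = j then 1 else 0) + (if b = j' then 1 else 0) := by
          simp only [swi]
          rw [Finset.sum_add_distrib, Finset.sum_sub_distrib, Finset.sum_sub_distrib,
            sum_col_ite, sum_col_ite, sum_col_ite]
        rw [e1, hXc b]
        ring
    · have h3 : X (i, j') ≤ swi i i' j j' X (i, j') + 1 := by
        simp only [swi, if_true]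
        by_cases h4 : ((i, j') : R × C) = (i', j)
        · have h5 : ((i, j') : R × C) = (i', j') := by
            have := (Prod.ext_iff.1 h4).1
            simp only at this
            rw [this]
          rw [if_pos h4, if_pos h5]
          omega
        · rw [if_neg h4]
          split_ifs <;> omega
      have h4 : X (i', j) ≤ swi i i' j j' X (i', j) + 1 := by
        simp only [swi, if_true]
        by_cases h4 : ((i', j) : R × C) = (i, j')
        · have h5 : ((i', j) : R × C) = (i', j') := by
            have := (Prod.ext_iff.1 h4).2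
            simp only at this
            rw [this]
          rw [if_pos h4, if_pos h5]
          omega
        · rw [if_neg h4]
          split_ifs <;> omega
      exact mul_le_mul h3 h4 (by omega) (by omega)

end Vale.Agent.P328B
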