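import Vale.Agent.P328B.Insert

/-!
P328, fact F11, second part: many insertions and the layer cake bound.
-/

namespace Vale.Agent.P328B

open Finset

variable {R C : Type} [Fintype R] [DecidableEq R] [Fintype C] [DecidableEq C]

/-- The rate of one insertion at a cell. -/
noncomputable def kap (r : R → ℤ) (c : C → ℤ) (e : R × C) : ℝ :=
  (Fintype.card C : ℝ) / (r e.1 + 1) + (Fintype.card R : ℝ) / (c e.2 + 1)

theorem insert_one_exp (r : R → ℤ) (c : C → ℤ) (hr : ∀ i, 0 ≤ r i) (hc : ∀ j, 0 ≤ c j)
    (e : R × C) :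
    ((tables (fun a => r a + if a = e.1 then 1 else 0)
        (fun b => c b + if b = e.2 then 1 else 0)).card : ℝ)
      ≤ ((tables r c).card : ℝ) * Real.exp (kap r c e) := by
  obtain ⟨i, j⟩ := e
  have h := insert_one r c i j
  have h' : ((tables (fun a => r a + if a = i then 1 else 0)
        (fun b => c b + if b = j then 1 else 0)).card : ℝ) * (((r i : ℝ) + 1) * ((c j : ℝ) + 1))
      ≤ ((tables r c).card : ℝ)
        * (((r i : ℝ) + Fintype.card C) * ((c j : ℝ) + Fintype.card R)) := by
    exact_mod_cast h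
  have hr0 : (0 : ℝ) ≤ r i := by exact_mod_cast hr i
  have hc0 : (0 : ℝ) ≤ c j := by exact_mod_cast hc j
  have h1 : ((r i : ℝ) + Fintype.card C) ≤ ((r i : ℝ) + 1)
      * Real.exp ((Fintype.card C : ℝ) / (r i + 1)) := by
    have h2 := Real.add_one_le_exp ((Fintype.card C : ℝ) / (r i + 1))
    have h3 : ((r i : ℝ) + 1) * ((Fintype.card C : ℝ) / (r i + 1) + 1)
        = (r i : ℝ) + Fintype.card C + 1 := by
      field_simp
      ring
    nlinarith [mul_le_mul_of_nonneg_left h2 (by linarith : (0 : ℝ) ≤ (r i : ℝ) + 1)]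
  have h2 : ((c j : ℝ) + Fintype.card R) ≤ ((c j : ℝ) + 1)
      * Real.exp ((Fintype.card R : ℝ) / (c j + 1)) := by
    have h2 := Real.add_one_le_exp ((Fintype.card R : ℝ) / (c j + 1))
    have h3 : ((c j : ℝ) + 1) * ((Fintype.card R : ℝ) / (c j + 1) + 1)
        = (c j : ℝ) + Fintype.card R + 1 := by
      field_simp
      ring
    nlinarith [mul_le_mul_of_nonneg_left h2 (by linarith : (0 : ℝ) ≤ (c j : ℝ) + 1)]
  have h3 : ((r i : ℝ) + Fintype.card C) * ((c j : ℝ) + Fintype.card R)
      ≤ (((r i : ℝ) + 1) * Real.exp ((Fintype.card C : ℝ) / (r i + 1)))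
        * (((c j : ℝ) + 1) * Real.exp ((Fintype.card R : ℝ) / (c j + 1))) :=
    mul_le_mul h1 h2 (by positivity) (by positivity)
  have h4 : (0 : ℝ) < ((r i : ℝ) + 1) * ((c j : ℝ) + 1) := by positivity
  have h5 : Real.exp (kap r c (i, j)) = Real.exp ((Fintype.card C : ℝ) / (r i + 1))
      * Real.exp ((Fintype.card R : ℝ) / (c j + 1)) := by
    rw [← Real.exp_add]
    rfl
  rw [h5]
  refine le_of_mul_le_mul_right (h'.trans ?_) h4
  calc ((tables r c).card : ℝ) * (((r i : ℝ) + Fintype.card C) * ((c j : ℝ) + Fintype.card R))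
      ≤ ((tables r c).card : ℝ) * ((((r i : ℝ) + 1) * Real.exp ((Fintype.card C : ℝ) / (r i + 1)))
        * (((c j : ℝ) + 1) * Real.exp ((Fintype.card R : ℝ) / (c j + 1)))) :=
        mul_le_mul_of_nonneg_left h3 (by positivity)
    _ = _ := by ring

/-- **Many insertions.** -/
theorem insert_many (r : R → ℤ) (c : C → ℤ) (hr : ∀ i, 0 ≤ r i) (hc : ∀ j, 0 ≤ c j) (N : ℕ) :
    ∀ t : R × C → ℕ, ∑ e, t e = N →
    ((tables (fun a => r a + ∑ b, (t (a, b) : ℤ)) (fun b => c b + ∑ a, (t (a, b) : ℤ))).card : ℝ)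
      ≤ ((tables r c).card : ℝ) * Real.exp (∑ e, kap r c e * t e) := by
  induction N with
  | zero =>
    intro t ht
    have h0 : ∀ e, t e = 0 := fun e => by
      have := Finset.sum_eq_zero_iff.1 ht e (Finset.mem_univ e)
      exact this
    simp [h0]
  | succ N ih =>
    intro t ht
    obtain ⟨e, he⟩ : ∃ e, t e ≠ 0 := by
      by_contra hcon
      push Not at hcon
      simp [hcon] at ht
    set t' : R × C → ℕ := fun x => t x - if x = e then 1 else 0 with ht'
    have htt : ∀ x, t x = t' x + if x = e then 1 else 0 := by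
      intro x
      simp only [ht']
      by_cases h : x = e
      · subst h
        simp only [if_true]
        omega
      · simp [h]
    have hN : ∑ x, t' x = N := by
      have : ∑ x, t x = ∑ x, t' x + ∑ x, (if x = e then 1 else 0) := by
        rw [← Finset.sum_add_distrib]
        exact Finset.sum_congr rfl fun x _ => htt x
      simp only [Finset.sum_ite_eq', Finset.mem_univ, if_true] at this
      omega
    have ih' := ih t' hN
    have h1 := insert_one_exp (fun a => r a + ∑ b, (t' (a, b) : ℤ))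
      (fun b => c b + ∑ a, (t' (a, b) : ℤ)) (fun a => add_nonneg (hr a) (by positivity))
      (fun b => add_nonneg (hc b) (by positivity)) e
    have er : (fun a => r a + ∑ b, (t (a, b) : ℤ))
        = fun a => (r a + ∑ b, (t' (a, b) : ℤ)) + if a = e.1 then 1 else 0 := by
      funext a
      have : ∑ b, (t (a, b) : ℤ) = ∑ b, (t' (a, b) : ℤ)
          + ∑ b, (if ((a, b) : R × C) = (e.1, e.2) then (1 : ℤ) else 0) := by
        rw [← Finset.sum_add_distrib]
        refine Finset.sum_congr rfl fun b _ => ?_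
        rw [htt (a, b)]
        push_cast
        rfl
      rw [this, sum_row_ite, add_assoc]
    have ec : (fun b => c b + ∑ a, (t (a, b) : ℤ))
        = fun b => (c b + ∑ a, (t' (a, b) : ℤ)) + if b = e.2 then 1 else 0 := by
      funext b
      have : ∑ a, (t (a, b) : ℤ) = ∑ a, (t' (a, b) : ℤ)
          + ∑ a, (if ((a, b) : R × C) = (e.1, e.2) then (1 : ℤ) else 0) := by
        rw [← Finset.sum_add_distrib]
        refine Finset.sum_congr rfl fun a _ => ?_
        rw [htt (a, b)]
        push_cast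
        rfl
      rw [this, sum_col_ite, add_assoc]
    rw [er, ec]
    refine h1.trans ?_
    have hk : kap (fun a => r a + ∑ b, (t' (a, b) : ℤ)) (fun b => c b + ∑ a, (t' (a, b) : ℤ)) e
        ≤ kap r c e := by
      unfold kap
      have ha : (0 : ℝ) ≤ r e.1 := by exact_mod_cast hr e.1
      have hb : (0 : ℝ) ≤ c e.2 := by exact_mod_cast hc e.2
      refine add_le_add ?_ ?_
      · refine div_le_div_of_nonneg_left (by positivity) (by positivity) ?_
        push_cast
        have : (0 : ℝ) ≤ ∑ b, (t' (e.1, b) : ℝ) := by positivity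
        linarith
      · refine div_le_div_of_nonneg_left (by positivity) (by positivity) ?_
        push_cast
        have : (0 : ℝ) ≤ ∑ a, (t' (a, e.2) : ℝ) := by positivity
        linarith
    have hs : ∑ x, kap r c x * (t x : ℝ) = ∑ x, kap r c x * (t' x : ℝ) + kap r c e := by
      have : ∑ x, kap r c x * (t x : ℝ) = ∑ x, (kap r c x * (t' x : ℝ)
          + if x = e then kap r c x else 0) := by
        refine Finset.sum_congr rfl fun x _ => ?_
        rw [htt x]
        push_cast
        by_cases h : x = e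
        · simp only [h, if_true]
          ring
        · simp [h]
      rw [this, Finset.sum_add_distrib]
      congr 1
      rw [Finset.sum_ite_eq' Finset.univ e, if_pos (Finset.mem_univ e)]
    rw [hs, Real.exp_add, ← mul_assoc]
    exact mul_le_mul ih' (Real.exp_le_exp.2 hk) (Real.exp_pos _).le
      (mul_nonneg (Nat.cast_nonneg _) (Real.exp_pos _).le)

/-- **Layer cake.** Product weights that are dominated by nonnegative combinations of the
indicators of `{-t ≤ x}`. -/
theorem layer_le (r : R → ℤ) (c : C → ℤ) (hr : ∀ i, 0 ≤ r i) (hc : ∀ j, 0 ≤ c j) (K : ℕ)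
    (D : R × C → ℕ → ℝ) (hD : ∀ e t, 0 ≤ D e t) (w : R × C → ℤ → ℝ) (hw : ∀ e x, 0 ≤ w e x)
    (hwD : ∀ e x, w e x ≤ ∑ t ∈ range K, D e t * if -(t : ℤ) ≤ x then 1 else 0)
    (S : Finset (R × C → ℤ))
    (hS : ∀ X ∈ S, (∀ i, ∑ j, X (i, j) = r i) ∧ ∀ j, ∑ i, X (i, j) = c j) :
    ∑ X ∈ S, ∏ e, w e (X e) ≤
      ((tables r c).card : ℝ) * ∏ e, ∑ t ∈ range K, D e t * Real.exp (kap r c e * t) := by
  classical
  have h1 : ∀ X ∈ S, ∏ e, w e (X e) ≤ ∑ t ∈ Fintype.piFinset (fun _ : R × C => range K),
      (∏ e, D e (t e)) * ∏ e, (if -(t e : ℤ) ≤ X e then (1 : ℝ) else 0) := by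
    intro X _
    calc ∏ e, w e (X e) ≤ ∏ e, ∑ t ∈ range K, D e t * (if -(t : ℤ) ≤ X e then (1 : ℝ) else 0) :=
          Finset.prod_le_prod (fun e _ => hw e _) fun e _ => hwD e (X e)
      _ = _ := by
          rw [Finset.prod_univ_sum]
          exact Finset.sum_congr rfl fun t _ => Finset.prod_mul_distrib
  refine (Finset.sum_le_sum h1).trans ?_
  rw [Finset.sum_comm]
  have h2 : ∀ t ∈ Fintype.piFinset (fun _ : R × C => range K),
      ∑ X ∈ S, (∏ e, D e (t e)) * ∏ e, (if -(t e : ℤ) ≤ X e then (1 : ℝ) else 0)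
      ≤ ((tables r c).card : ℝ) * ∏ e, (D e (t e) * Real.exp (kap r c e * t e)) := by
    intro t _
    rw [← Finset.mul_sum]
    have h3 : ∑ X ∈ S, ∏ e, (if -(t e : ℤ) ≤ X e then (1 : ℝ) else 0)
        = ((S.filter fun X => ∀ e, -(t e : ℤ) ≤ X e).card : ℝ) := by
      rw [Finset.card_filter]
      push_cast
      refine Finset.sum_congr rfl fun X _ => ?_
      by_cases h : ∀ e, -(t e : ℤ) ≤ X e
      · rw [if_pos h]
        exact Finset.prod_eq_one fun e _ => if_pos (h e)
      · rw [if_neg h]
        push Not at h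
        obtain ⟨e, he⟩ := h
        exact Finset.prod_eq_zero (Finset.mem_univ e) (if_neg (not_le.2 he))
    have h4 : ((S.filter fun X => ∀ e, -(t e : ℤ) ≤ X e).card : ℝ) ≤
        ((tables (fun a => r a + ∑ b, (t (a, b) : ℤ)) (fun b => c b + ∑ a, (t (a, b) : ℤ))).card :
          ℝ) := by
      refine Nat.cast_le.2 ?_
      refine Finset.card_le_card_of_injOn (fun X e => X e + (t e : ℤ)) ?_ ?_
      · intro X hX
        rw [Finset.mem_coe, Finset.mem_filter] at hX
        rw [Finset.mem_coe, mem_tables]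
        refine ⟨fun e => ?_, fun i => ?_, fun j => ?_⟩
        · have := hX.2 e
          simp only
          omega
        · simp only
          rw [Finset.sum_add_distrib, (hS X hX.1).1 i]
        · simp only
          rw [Finset.sum_add_distrib, (hS X hX.1).2 j]
      · intro X _ Y _ h
        funext e
        have := congrFun h e
        simpa using this
    rw [h3]
    calc (∏ e, D e (t e)) * ((S.filter fun X => ∀ e, -(t e : ℤ) ≤ X e).card : ℝ)
        ≤ (∏ e, D e (t e)) * (((tables r c).card : ℝ) * Real.exp (∑ e, kap r c e * t e)) :=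
          mul_le_mul_of_nonneg_left (h4.trans (insert_many r c hr hc _ t rfl))
            (Finset.prod_nonneg fun e _ => hD e _)
      _ = _ := by
          rw [Real.exp_sum, Finset.prod_mul_distrib]
          ring
  refine (Finset.sum_le_sum h2).trans ?_
  rw [← Finset.mul_sum, Finset.prod_univ_sum]

/-- The normalized pivot weight. -/
noncomputable def pvt (L q : ℕ) (x : ℤ) : ℝ :=
  if -(L : ℤ) ≤ x then (((L : ℝ) + (min 0 x : ℤ)) / L) ^ q else 0

/-- Its layers. -/
noncomputable def lay (L q t : ℕ) : ℝ :=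
  if t < L then (((L : ℝ) - t) / L) ^ q - (((L : ℝ) - (t + 1)) / L) ^ q else 0

theorem lay_nonneg (L q t : ℕ) : 0 ≤ lay L q t := by
  unfold lay
  split_ifs with h
  · have hL : (0 : ℝ) < L := by
      have : 0 < L := by omega
      exact_mod_cast this
    have h1 : ((t : ℝ) + 1) ≤ L := by exact_mod_cast h
    have h2 : ((L : ℝ) - (t + 1)) / L ≤ ((L : ℝ) - t) / L := by
      apply div_le_div_of_nonneg_right _ hL.le
      linarith
    have h3 : 0 ≤ ((L : ℝ) - (t + 1)) / L := div_nonneg (by linarith) hL.le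
    linarith [pow_le_pow_left₀ h3 h2 q]
  · exact le_rfl

theorem sum_lay (L q : ℕ) (hq : 0 < q) (s : ℕ) (hs : s ≤ L) :
    ∑ t ∈ range L, lay L q t * (if s ≤ t then 1 else 0) = (((L : ℝ) - s) / L) ^ q := by
  have hgen : ∀ n, s ≤ n → n ≤ L → ∑ t ∈ range n, lay L q t * (if s ≤ t then (1 : ℝ) else 0)
      = (((L : ℝ) - s) / L) ^ q - (((L : ℝ) - n) / L) ^ q := by
    intro n
    induction n with
    | zero =>
      intro h1 _
      have : s = 0 := by omega
      subst this
      simp
    | succ n ih =>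
      intro h1 h2
      rw [Finset.sum_range_succ]
      rcases Nat.lt_or_ge n s with h | h
      · have hs' : s = n + 1 := by omega
        subst hs'
        rw [if_neg (by omega), mul_zero, add_zero, sub_self]
        refine Finset.sum_eq_zero fun t ht => ?_
        rw [if_neg (by have := Finset.mem_range.1 ht; omega), mul_zero]
      · rw [ih h (by omega), if_pos h, mul_one]
        unfold lay
        rw [if_pos (by omega)]
        push_cast
        ring
  rw [hgen L hs le_rfl, sub_self, zero_div, zero_pow hq.ne', sub_zero]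

theorem pvt_le_lay (L q : ℕ) (hq : 0 < q) (x : ℤ) :
    pvt L q x ≤ ∑ t ∈ range L, lay L q t * (if -(t : ℤ) ≤ x then 1 else 0) := by
  unfold pvt
  split_ifs with h
  · obtain ⟨s, hs⟩ : ∃ s : ℕ, (s : ℤ) = max 0 (-x) :=
      ⟨(max 0 (-x)).toNat, Int.toNat_of_nonneg (le_max_left _ _)⟩
    have hsL : s ≤ L := by omega
    have h1 : ∀ t : ℕ, (-(t : ℤ) ≤ x ↔ s ≤ t) := by
      intro t
      omega
    have h2 : ((min 0 x : ℤ) : ℝ) = -(s : ℝ) := by
      have : (min 0 x : ℤ) = -(s : ℤ) := by omega
      rw [this]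
      push_cast
      rfl
    rw [h2, ← sub_eq_add_neg, ← sum_lay L q hq s hsL]
    refine le_of_eq (Finset.sum_congr rfl fun t _ => ?_)
    simp only [h1]
  · exact Finset.sum_nonneg fun t _ => mul_nonneg (lay_nonneg L q t) (by split_ifs <;> norm_num)

theorem geo_exp (η : ℝ) (hη : 0 < η) (n : ℕ) :
    ∑ k ∈ range n, Real.exp (-(η * (k + 1))) ≤ (1 - Real.exp (-(η * n))) / η := by
  induction n with
  | zero => simp
  | succ n ih =>
    rw [Finset.sum_range_succ]
    have h1 : Real.exp (-(η * (n + 1))) ≤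
        (Real.exp (-(η * n)) - Real.exp (-(η * (n + 1)))) / η := by
      rw [le_div_iff₀ hη]
      have h2 : Real.exp (-(η * n)) = Real.exp (-(η * (n + 1))) * Real.exp η := by
        rw [← Real.exp_add]
        congr 1
        ring
      rw [h2]
      have h3 := Real.add_one_le_exp η
      nlinarith [Real.exp_pos (-(η * (n + 1)))]
    have h4 : (1 - Real.exp (-(η * ((n + 1 : ℕ) : ℝ)))) / η = (1 - Real.exp (-(η * n))) / η
        + (Real.exp (-(η * n)) - Real.exp (-(η * (n + 1)))) / η := by
      push_cast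
      ring
    rw [h4]
    exact add_le_add ih h1

/-- Laplace transform of the layers. -/
theorem sum_lay_exp (L q : ℕ) (hL : 0 < L) {κ δ : ℝ} (hκ : 0 ≤ κ)
    (hκ2 : κ < (q : ℝ) / L) (hδ : κ ≤ δ * ((q : ℝ) / L - κ)) :
    ∑ t ∈ range L, lay L q t * Real.exp (κ * t) ≤ 1 + δ := by
  set θ : ℝ := (q : ℝ) / L with hθ
  have hLr : (0 : ℝ) < L := by exact_mod_cast hL
  set a : ℕ → ℝ := fun t => (((L : ℝ) - t) / L) ^ q with ha
  have ha0 : a 0 = 1 := by
    simp only [ha, Nat.cast_zero, sub_zero]
    rw [div_self hLr.ne', one_pow]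
  have ha_le : ∀ t, t ≤ L → a t ≤ Real.exp (-(θ * t)) := by
    intro t ht
    have h1 : ((L : ℝ) - t) / L = 1 - (t : ℝ) / L := by
      rw [sub_div, div_self hLr.ne']
    have h2 : 0 ≤ 1 - (t : ℝ) / L := by
      rw [← h1]
      exact div_nonneg (by have : (t : ℝ) ≤ L := by exact_mod_cast ht
                           linarith) hLr.le
    have h3 : 1 - (t : ℝ) / L ≤ Real.exp (-((t : ℝ) / L)) := by
      have := Real.add_one_le_exp (-((t : ℝ) / L))
      linarith
    calc a t = (1 - (t : ℝ) / L) ^ q := by simp only [ha]; rw [h1]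
      _ ≤ Real.exp (-((t : ℝ) / L)) ^ q := pow_le_pow_left₀ h2 h3 q
      _ = Real.exp (-(θ * t)) := by
          rw [← Real.exp_nat_mul]
          congr 1
          rw [hθ]
          ring
  have ha_nn : ∀ t, t ≤ L → 0 ≤ a t := by
    intro t ht
    refine pow_nonneg (div_nonneg ?_ hLr.le) q
    have : (t : ℝ) ≤ L := by exact_mod_cast ht
    linarith
  set η : ℝ := θ - κ with hη
  have hη0 : 0 < η := by rw [hη]; linarith
  have hF : ∀ n, n ≤ L → ∑ t ∈ range n, lay L q t * Real.exp (κ * t) + a n * Real.exp (κ * n)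
      ≤ 1 + κ * ∑ k ∈ range n, Real.exp (-(η * (k + 1))) := by
    intro n
    induction n with
    | zero =>
      intro _
      simp [ha0]
    | succ n ih =>
      intro h1
      have ih' := ih (by omega)
      rw [Finset.sum_range_succ, Finset.sum_range_succ]
      have h2 : lay L q n = a n - a (n + 1) := by
        unfold lay
        rw [if_pos (by omega)]
        simp only [ha]
        push_cast
        rfl
      have h3 : a (n + 1) * Real.exp (κ * ((n + 1 : ℕ) : ℝ)) - a (n + 1) * Real.exp (κ * n)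
          ≤ κ * Real.exp (-(η * (n + 1))) := by
        have h4 : Real.exp (κ * ((n + 1 : ℕ) : ℝ)) = Real.exp (κ * n) * Real.exp κ := by
          rw [← Real.exp_add]
          congr 1
          push_cast
          ring
        have h5 : Real.exp (κ * ((n + 1 : ℕ) : ℝ)) - Real.exp (κ * n)
            ≤ κ * Real.exp (κ * ((n + 1 : ℕ) : ℝ)) := by
          have h6 : Real.exp (κ * n) = Real.exp (κ * ((n + 1 : ℕ) : ℝ)) * Real.exp (-κ) := by
            rw [← Real.exp_add]
            congr 1
            push_cast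
            ring
          have h7 := Real.add_one_le_exp (-κ)
          nlinarith [Real.exp_pos (κ * ((n + 1 : ℕ) : ℝ))]
        calc a (n + 1) * Real.exp (κ * ((n + 1 : ℕ) : ℝ)) - a (n + 1) * Real.exp (κ * n)
            = a (n + 1) * (Real.exp (κ * ((n + 1 : ℕ) : ℝ)) - Real.exp (κ * n)) := by ring
          _ ≤ Real.exp (-(θ * ((n + 1 : ℕ) : ℝ))) * (κ * Real.exp (κ * ((n + 1 : ℕ) : ℝ))) := by
              refine mul_le_mul (ha_le (n + 1) h1) h5 ?_ (Real.exp_pos _).le
              have : Real.exp (κ * n) ≤ Real.exp (κ * ((n + 1 : ℕ) : ℝ)) := by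
                refine Real.exp_le_exp.2 ?_
                push_cast
                nlinarith
              linarith
          _ = κ * (Real.exp (-(θ * ((n + 1 : ℕ) : ℝ))) * Real.exp (κ * ((n + 1 : ℕ) : ℝ))) := by
              ring
          _ = κ * Real.exp (-(η * (n + 1))) := by
              rw [← Real.exp_add]
              congr 2
              rw [hη]
              push_cast
              ring
      rw [h2]
      have h8 : (a n - a (n + 1)) * Real.exp (κ * n) = a n * Real.exp (κ * n)
          - a (n + 1) * Real.exp (κ * n) := by ring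
      rw [h8, mul_add]
      linarith
  have h1 := hF L le_rfl
  have h2 := geo_exp η hη0 L
  have h3 : κ * ∑ k ∈ range L, Real.exp (-(η * (k + 1))) ≤ δ := by
    calc κ * ∑ k ∈ range L, Real.exp (-(η * (k + 1)))
        ≤ κ * ((1 - Real.exp (-(η * L))) / η) := mul_le_mul_of_nonneg_left h2 hκ
      _ ≤ κ * (1 / η) := by
          refine mul_le_mul_of_nonneg_left ?_ hκ
          refine div_le_div_of_nonneg_right ?_ hη0.le
          have := Real.exp_pos (-(η * L))
          linarith
      _ = κ / η := by ring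
      _ ≤ δ := by
          rw [div_le_iff₀ hη0]
          exact hδ
  have h4 : 0 ≤ a L * Real.exp (κ * L) := mul_nonneg (ha_nn L le_rfl) (Real.exp_pos _).le
  linarith

/-- **F11.** The total normalized weight of the sector with margins `r, c`, where the cells of `P`
carry (at most) the pivot weight and all other cells at most the indicator of `0 ≤ x`, is at most
`(1 + δ) ^ |P|` times the number of tables. -/
theorem pivot_mass (r : R → ℤ) (c : C → ℤ) (hr : ∀ i, 0 ≤ r i) (hc : ∀ j, 0 ≤ c j)
    (P : Finset (R × C)) (L q : R × C → ℕ) (hL : ∀ e ∈ P, 0 < L e) (hq : ∀ e ∈ P, 0 < q e)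
    {δ : ℝ} (hκ : ∀ e ∈ P, kap r c e < (q e : ℝ) / L e)
    (hδ : ∀ e ∈ P, kap r c e ≤ δ * ((q e : ℝ) / L e - kap r c e))
    (w : R × C → ℤ → ℝ) (hw : ∀ e x, 0 ≤ w e x) (hwP : ∀ e ∈ P, ∀ x, w e x ≤ pvt (L e) (q e) x)
    (hwN : ∀ e ∉ P, ∀ x, w e x ≤ if 0 ≤ x then 1 else 0)
    (S : Finset (R × C → ℤ))
    (hS : ∀ X ∈ S, (∀ i, ∑ j, X (i, j) = r i) ∧ ∀ j, ∑ i, X (i, j) = c j) :
    ∑ X ∈ S, ∏ e, w e (X e) ≤ ((tables r c).card : ℝ) * (1 + δ) ^ P.card := by
  classical
  have hk0 : ∀ e, 0 ≤ kap r c e := by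
    intro e
    have ha : (0 : ℝ) ≤ r e.1 := by exact_mod_cast hr e.1
    have hb : (0 : ℝ) ≤ c e.2 := by exact_mod_cast hc e.2
    unfold kap
    positivity
  set K : ℕ := ∑ e, L e + 1 with hK
  have hLK : ∀ e, L e ≤ K := by
    intro e
    have := Finset.single_le_sum (f := L) (fun x _ => Nat.zero_le _) (Finset.mem_univ e)
    omega
  set D : R × C → ℕ → ℝ := fun e t => if e ∈ P then lay (L e) (q e) t else if t = 0 then 1 else 0
    with hD
  have hD0 : ∀ e t, 0 ≤ D e t := by
    intro e t
    simp only [hD]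
    split_ifs
    · exact lay_nonneg _ _ _
    · exact zero_le_one
    · exact le_rfl
  have hlay0 : ∀ e t, L e ≤ t → lay (L e) (q e) t = 0 := by
    intro e t h
    unfold lay
    rw [if_neg (by omega)]
  have hext : ∀ e ∈ P, ∀ F : ℕ → ℝ, ∑ t ∈ range K, D e t * F t
      = ∑ t ∈ range (L e), lay (L e) (q e) t * F t := by
    intro e he F
    simp only [hD, if_pos he]
    symm
    refine Finset.sum_subset (Finset.range_subset_range.2 (hLK e)) fun t _ ht => ?_
    rw [hlay0 e t (by simpa using ht), zero_mul]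
  have hnon : ∀ e ∉ P, ∀ F : ℕ → ℝ, ∑ t ∈ range K, D e t * F t = F 0 := by
    intro e he F
    simp only [hD, if_neg he]
    rw [Finset.sum_eq_single 0]
    · simp
    · intro t _ ht
      rw [if_neg ht, zero_mul]
    · intro h
      exact absurd (Finset.mem_range.2 (by omega)) h
  have h1 := layer_le r c hr hc K D hD0 w hw (fun e x => by
    by_cases he : e ∈ P
    · rw [hext e he]
      exact (hwP e he x).trans (pvt_le_lay _ _ (hq e he) x)
    · rw [hnon e he]
      simpa using hwN e he x) S hS
  refine h1.trans (mul_le_mul_of_nonneg_left ?_ (by positivity))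
  calc ∏ e, ∑ t ∈ range K, D e t * Real.exp (kap r c e * t)
      ≤ ∏ e, (if e ∈ P then 1 + δ else 1) := by
        refine Finset.prod_le_prod (fun e _ => Finset.sum_nonneg fun t _ =>
          mul_nonneg (hD0 e t) (Real.exp_pos _).le) fun e _ => ?_
        by_cases he : e ∈ P
        · rw [hext e he, if_pos he]
          exact sum_lay_exp _ _ (hL e he) (hk0 e) (hκ e he) (hδ e he)
        · rw [hnon e he (fun t => Real.exp (kap r c e * t)), if_neg he]
          simp
    _ = (1 + δ) ^ P.card := by
        rw [Finset.prod_ite_mem, Finset.univ_inter, Finset.prod_const]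

end Vale.Agent.P328B
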